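import Vale.Agent.P200e.GMain

namespace Vale.Agent.Results.P200.AddPowers

open MvPolynomial Module Vale.Agent.P200e

/-- Adding powers of linear forms preserves the Eisenbud-Green-Harris conjecture. Suppose Q1 holds
for the forms `F` of `K[X_0, ..., X_(r-1)]` and the degrees `a`: for every homogeneous ideal `J`
containing `F` the lex-plus-powers set is the exponent set of an ideal with the Hilbert function
of `J`. Let `I` be a homogeneous ideal in `r + n` variables that contains, after a linear change
of coordinates `φ`, lifts of the elements of `F` and, for the `i < n` with `A i ≠ 0`, elements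
congruent to a nonzero multiple of `X_i ^ (A i)` modulo `(X_j, j < i)`. Then some monomial ideal
containing all the pure powers has the Hilbert function of `I`. -/
theorem result (K : Type) [Field K] (r : ℕ) (a : Fin r → ℕ) (F : Set (MvPolynomial (Fin r) K))
    (hE : ∀ J : Ideal (MvPolynomial (Fin r) K), HomIdeal J → (∀ p ∈ F, p ∈ J) → LppIdeal a J)
    (n : ℕ) (A : Fin n → ℕ)
    (φ : MvPolynomial (Fin (r + n)) K ≃ₐ[K] MvPolynomial (Fin (r + n)) K)
    (hφ : ∀ i, (φ (X i)).IsHomogeneous 1)
    (I : Ideal (MvPolynomial (Fin (r + n)) K)) (hI : HomIdeal I)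
    (hA : FlagR r n A (I.comap φ))
    (hF : ∀ p ∈ F, ∃ f ∈ I.comap φ, resr r n f = p) :
    ∃ M : Ideal (MvPolynomial (Fin (r + n)) K), IsMonomialIdeal M ∧
      (∀ i : Fin n, A i ≠ 0 → X (fst r i) ^ (A i) ∈ M) ∧
      (∀ j : Fin r, a j ≠ 0 → X (lst n j) ^ (a j) ∈ M) ∧
      ∀ d, finrank K (piece M d) = finrank K (piece I d) :=
  mainG r a F hE n A φ hφ I hI hA hF

end Vale.Agent.Results.P200.AddPowers
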