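import Vale.Agent.P200e.RegMain

namespace Vale.Agent.Results.P200.Combined

open MvPolynomial Module Vale.Agent.P200e

/-- Three results on the Eisenbud-Green-Harris conjecture (Q1, in the form: some monomial ideal
containing the pure powers has the Hilbert function of `I`), over every field and for every number
of variables; `φ` is a linear change of coordinates.
(1) It holds for every homogeneous ideal containing a regular sequence that consists of powers of
`n` linear forms and two arbitrary forms in `n + 2` variables.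
(2) It holds for every homogeneous ideal in `n + 2` variables containing two forms that are coprime
on the plane `X_0 = ... = X_(n-1) = 0` and, for the `i < n` with `A i ≠ 0`, an element congruent to
a nonzero multiple of `X_i ^ (A i)` modulo `(X_j, j < i)` (shorter sequences included).
(3) If Q1 (with the lex-plus-powers ideal) holds for a family `F` of forms in `r` variables, then
it holds in `r + n` variables for `F` (lifted arbitrarily) together with such elements. -/
theorem result (K : Type) [Field K] :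
    (∀ (n : ℕ) (A : Fin n → ℕ) (a b : ℕ), (∀ i, 0 < A i) → 0 < a → a ≤ b →
      ∀ g h : MvPolynomial (Fin (n + 2)) K, g.IsHomogeneous a → h.IsHomogeneous b →
      (∀ f, g * f ∈ powIdeal n A → f ∈ powIdeal n A) →
      (∀ f, h * f ∈ powIdeal n A ⊔ Ideal.span {g} → f ∈ powIdeal n A ⊔ Ideal.span {g}) →
      ∀ φ : MvPolynomial (Fin (n + 2)) K ≃ₐ[K] MvPolynomial (Fin (n + 2)) K,
      (∀ i, (φ (X i)).IsHomogeneous 1) →
      ∀ I : Ideal (MvPolynomial (Fin (n + 2)) K), HomIdeal I →
      (∀ i : Fin n, φ (X (Fin.castAdd 2 i)) ^ A i ∈ I) → φ g ∈ I → φ h ∈ I →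
      ∃ M : Ideal (MvPolynomial (Fin (n + 2)) K), IsMonomialIdeal M ∧
        (∀ i : Fin n, X (Fin.castAdd 2 i) ^ (A i) ∈ M) ∧
        X (Fin.natAdd n 0) ^ a ∈ M ∧ X (Fin.natAdd n 1) ^ b ∈ M ∧
        ∀ d, finrank K (piece M d) = finrank K (piece I d)) ∧
    (∀ (n : ℕ) (A : Fin n → ℕ) (a b : ℕ), 0 < a → a ≤ b →
      ∀ φ : MvPolynomial (Fin (n + 2)) K ≃ₐ[K] MvPolynomial (Fin (n + 2)) K,
      (∀ i, (φ (X i)).IsHomogeneous 1) →
      ∀ I : Ideal (MvPolynomial (Fin (n + 2)) K), HomIdeal I →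
      Flag n A (I.comap φ) → HasTwo n a b (I.comap φ) →
      ∃ M : Ideal (MvPolynomial (Fin (n + 2)) K), IsMonomialIdeal M ∧
        (∀ i : Fin n, A i ≠ 0 → X (Fin.castAdd 2 i) ^ (A i) ∈ M) ∧
        X (Fin.natAdd n 0) ^ a ∈ M ∧ X (Fin.natAdd n 1) ^ b ∈ M ∧
        ∀ d, finrank K (piece M d) = finrank K (piece I d)) ∧
    (∀ (r : ℕ) (a : Fin r → ℕ) (F : Set (MvPolynomial (Fin r) K)),
      (∀ J : Ideal (MvPolynomial (Fin r) K), HomIdeal J → (∀ p ∈ F, p ∈ J) → LppIdeal a J) →
      ∀ (n : ℕ) (A : Fin n → ℕ)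
      (φ : MvPolynomial (Fin (r + n)) K ≃ₐ[K] MvPolynomial (Fin (r + n)) K),
      (∀ i, (φ (X i)).IsHomogeneous 1) →
      ∀ I : Ideal (MvPolynomial (Fin (r + n)) K), HomIdeal I →
      FlagR r n A (I.comap φ) → (∀ p ∈ F, ∃ f ∈ I.comap φ, resr r n f = p) →
      ∃ M : Ideal (MvPolynomial (Fin (r + n)) K), IsMonomialIdeal M ∧
        (∀ i : Fin n, A i ≠ 0 → X (fst r i) ^ (A i) ∈ M) ∧
        (∀ j : Fin r, a j ≠ 0 → X (lst n j) ^ (a j) ∈ M) ∧
        ∀ d, finrank K (piece M d) = finrank K (piece I d)) := by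
  refine ⟨?_, ?_, ?_⟩
  · intro n A a b hA ha hab g h hga hhb hg hh φ hφ I hI h1 h2 h3
    exact mainReg n A a b hA ha hab g h hga hhb hg hh φ hφ I hI h1 h2 h3
  · intro n A a b ha hab φ hφ I hI hA h2
    exact main' n A a b ha hab φ hφ I hI hA h2
  · intro r a F hE n A φ hφ I hI hA hF
    exact mainG r a F hE n A φ hφ I hI hA hF

end Vale.Agent.Results.P200.Combined
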