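import Vale.Agent.P200e.Coord

namespace Vale.Agent.Results.P200.TwoFormsAndPowers

open MvPolynomial Module Vale.Agent.P200e

/-- The Eisenbud-Green-Harris conjecture holds, over every field and in any number `n + 2` of
variables, for the homogeneous ideals `I` that contain, after a linear change of coordinates `φ`,
two forms `g`, `h` of arbitrary degrees `a ≤ b` whose restrictions to the plane
`X_0 = ... = X_(n-1) = 0` are coprime, and for any chosen set of indices `i < n` (those with
`A i ≠ 0`) an element `f_i` congruent to a nonzero multiple of `X_i ^ (A i)` modulo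
`(X_j, j < i)`: some monomial ideal that contains the corresponding pure powers has the same
Hilbert function as `I`. -/
theorem result (K : Type) [Field K] (n : ℕ) (A : Fin n → ℕ) (a b : ℕ) (ha : 0 < a) (hab : a ≤ b)
    (φ : MvPolynomial (Fin (n + 2)) K ≃ₐ[K] MvPolynomial (Fin (n + 2)) K)
    (hφ : ∀ i, (φ (X i)).IsHomogeneous 1)
    (I : Ideal (MvPolynomial (Fin (n + 2)) K)) (hI : HomIdeal I)
    (hA : Flag n A (I.comap φ)) (hgh : HasTwo n a b (I.comap φ)) :
    ∃ M : Ideal (MvPolynomial (Fin (n + 2)) K), IsMonomialIdeal M ∧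
      (∀ i : Fin n, A i ≠ 0 → X (Fin.castAdd 2 i) ^ (A i) ∈ M) ∧
      X (Fin.natAdd n 0) ^ a ∈ M ∧ X (Fin.natAdd n 1) ^ b ∈ M ∧
      ∀ d, finrank K (piece M d) = finrank K (piece I d) :=
  main' n A a b ha hab φ hφ I hI hA hgh

end Vale.Agent.Results.P200.TwoFormsAndPowers
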